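import Mathlib

open Finset
namespace Vale.Agent.P143A

/-- `T` is a spanning tree of the finite graph with vertex set `W` and edge set `E`. -/
def IsST {V : Type*} (W : Finset V) (E : Finset (Sym2 V)) (T : Set (Sym2 V)) : Prop :=
  T ⊆ E ∧ (SimpleGraph.fromEdgeSet T).IsAcyclic ∧
    ∀ u ∈ W, ∀ v ∈ W, (SimpleGraph.fromEdgeSet T).Reachable u v

/-- Reachability using only the edges in `S`. -/
def R {V : Type*} (S : Set (Sym2 V)) (u v : V) : Prop :=
  (SimpleGraph.fromEdgeSet S).Reachable u v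

section basic

variable {V : Type*} {S F : Set (Sym2 V)} {a b u v w x y z : V}

lemma R.refl (S : Set (Sym2 V)) (u : V) : R S u u := SimpleGraph.Reachable.refl u

lemma R.symm (h : R S u v) : R S v u := SimpleGraph.Reachable.symm h

lemma R_comm : R S u v ↔ R S v u := ⟨R.symm, R.symm⟩

lemma R.trans (h : R S u v) (h' : R S v w) : R S u w := SimpleGraph.Reachable.trans h h'

lemma R.mono (hSF : S ⊆ F) (h : R S u v) : R F u v :=
  SimpleGraph.Reachable.mono (SimpleGraph.fromEdgeSet_mono hSF) h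

lemma R_of_mem (h : s(u, v) ∈ S) : R S u v := by
  by_cases huv : u = v
  · subst huv; exact R.refl _ _
  · exact SimpleGraph.Adj.reachable ((SimpleGraph.fromEdgeSet_adj S).2 ⟨h, huv⟩)

lemma R_insert : R (insert s(a, b) F) u v ↔
    R F u v ∨ (R F u a ∧ R F b v) ∨ (R F u b ∧ R F a v) := by
  have hsub : F ⊆ insert s(a, b) F := Set.subset_insert _ _
  have hab : R (insert s(a, b) F) a b := R_of_mem (Set.mem_insert _ _)
  constructor
  · rintro ⟨p⟩
    induction p with
    | nil => exact Or.inl (R.refl _ _)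
    | @cons u u' v h p ih =>
      rw [SimpleGraph.fromEdgeSet_adj] at h
      obtain ⟨h1, h2⟩ := h
      rcases h1 with h1 | h1
      · rw [Sym2.eq_iff] at h1
        rcases h1 with ⟨rfl, rfl⟩ | ⟨rfl, rfl⟩
        · rcases ih with ih | ⟨_, ih⟩ | ⟨_, ih⟩
          · exact Or.inr (Or.inl ⟨R.refl _ _, ih⟩)
          · exact Or.inr (Or.inl ⟨R.refl _ _, ih⟩)
          · exact Or.inl ih
        · rcases ih with ih | ⟨_, ih⟩ | ⟨_, ih⟩
          · exact Or.inr (Or.inr ⟨R.refl _ _, ih⟩)
          · exact Or.inl ih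
          · exact Or.inr (Or.inr ⟨R.refl _ _, ih⟩)
      · have h3 : R F u u' := R_of_mem h1
        rcases ih with ih | ⟨ih, ih'⟩ | ⟨ih, ih'⟩
        · exact Or.inl (h3.trans ih)
        · exact Or.inr (Or.inl ⟨h3.trans ih, ih'⟩)
        · exact Or.inr (Or.inr ⟨h3.trans ih, ih'⟩)
  · rintro (h | ⟨h, h'⟩ | ⟨h, h'⟩)
    · exact h.mono hsub
    · exact ((h.mono hsub).trans hab).trans (h'.mono hsub)
    · exact ((h.mono hsub).trans hab.symm).trans (h'.mono hsub)

lemma acyclic_insert (hab : a ≠ b) (hF : s(a, b) ∉ F) :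
    (SimpleGraph.fromEdgeSet (insert s(a, b) F)).IsAcyclic ↔
      (SimpleGraph.fromEdgeSet F).IsAcyclic ∧ ¬ R F a b := by
  have h1 : SimpleGraph.fromEdgeSet (insert s(a, b) F) =
      SimpleGraph.fromEdgeSet F ⊔ SimpleGraph.edge a b := by
    ext u v
    simp only [SimpleGraph.fromEdgeSet_adj, Set.mem_insert_iff, SimpleGraph.sup_adj,
      SimpleGraph.edge_adj, Sym2.eq_iff]
    constructor
    · rintro ⟨h | h, h'⟩
      · right
        refine ⟨?_, h'⟩
        rcases h with ⟨rfl, rfl⟩ | ⟨rfl, rfl⟩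
        · simp
        · simp
      · left; exact ⟨h, h'⟩
    · rintro (⟨h, h'⟩ | ⟨h, h'⟩)
      · exact ⟨Or.inr h, h'⟩
      · refine ⟨Or.inl ?_, h'⟩
        rcases h with ⟨rfl, rfl⟩ | ⟨rfl, rfl⟩
        · simp
        · simp
  rw [h1, SimpleGraph.isAcyclic_sup_fromEdgeSet_iff]
  have h2 : ¬ (SimpleGraph.fromEdgeSet F).Adj a b := by
    rw [SimpleGraph.fromEdgeSet_adj]; tauto
  simp only [hab, h2, or_self, R]

end basic

open Classical in
/-- Indicator. -/
noncomputable def ind (p : Prop) : ℝ := if p then 1 else 0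

lemma ind_true {p : Prop} (h : p) : ind p = 1 := by simp [ind, h]
lemma ind_false {p : Prop} (h : ¬ p) : ind p = 0 := by simp [ind, h]

section tree

variable {V : Type*} {W : Finset V} {E : Finset (Sym2 V)} {T : Set (Sym2 V)} {a b x y z : V}

lemma IsST.split (hT : IsST W E T) (hdiag : ∀ e ∈ E, ¬ e.IsDiag) (hab : s(a, b) ∈ T)
    (haW : a ∈ W) :
    a ≠ b ∧ ¬ R (T \ {s(a, b)}) a b ∧
      ∀ z ∈ W, R (T \ {s(a, b)}) a z ∨ R (T \ {s(a, b)}) b z := by
  obtain ⟨h1, h2, h3⟩ := hT
  have hne : a ≠ b := by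
    intro h
    exact hdiag _ (h1 hab) (by simp [h])
  have hins : insert s(a, b) (T \ {s(a, b)}) = T := by
    rw [Set.insert_sdiff_singleton, Set.insert_eq_of_mem hab]
  refine ⟨hne, ?_, ?_⟩
  · rw [← hins, acyclic_insert hne (by simp)] at h2
    exact h2.2
  · intro z hz
    have h4 : R T a z := h3 a haW z hz
    rw [← hins, R_insert] at h4
    tauto

lemma IsST.ind_add (hT : IsST W E T) (hdiag : ∀ e ∈ E, ¬ e.IsDiag) (hab : s(a, b) ∈ T)
    (haW : a ∈ W) (hz : z ∈ W) :
    ind (R (T \ {s(a, b)}) a z) + ind (R (T \ {s(a, b)}) b z) = 1 := by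
  obtain ⟨h1, h2, h3⟩ := hT.split hdiag hab haW
  by_cases h4 : R (T \ {s(a, b)}) a z
  · have h5 : ¬ R (T \ {s(a, b)}) b z := fun h => h2 (h4.trans h.symm)
    rw [ind_true h4, ind_false h5]; norm_num
  · have h5 : R (T \ {s(a, b)}) b z := (h3 z hz).resolve_left h4
    rw [ind_false h4, ind_true h5]; norm_num

open Classical in
/-- The unit path flow in the tree `T` from `x` to `y`. -/
noncomputable def flow (T : Set (Sym2 V)) (x y a b : V) : ℝ :=
  if s(a, b) ∈ T then ind (R (T \ {s(a, b)}) b y) - ind (R (T \ {s(a, b)}) b x) else 0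

lemma flow_antisymm (hT : IsST W E T) (hEW : ∀ e ∈ E, ∀ v ∈ e, v ∈ W)
    (hdiag : ∀ e ∈ E, ¬ e.IsDiag) (hx : x ∈ W) (hy : y ∈ W) (a b : V) :
    flow T x y a b = - flow T x y b a := by
  unfold flow
  by_cases hab : s(a, b) ∈ T
  · have haW : a ∈ W := hEW _ (hT.1 hab) a (Sym2.mem_mk_left a b)
    have h1 := hT.ind_add hdiag hab haW hx
    have h2 := hT.ind_add hdiag hab haW hy
    have hba : s(b, a) = s(a, b) := Sym2.eq_swap
    rw [hba, if_pos hab, if_pos hab]
    linarith
  · have hba : s(b, a) = s(a, b) := Sym2.eq_swap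
    rw [hba, if_neg hab, if_neg hab]; simp

lemma flow_eq_zero (h : s(a, b) ∉ T) : flow T x y a b = 0 := by
  unfold flow; rw [if_neg h]

open Classical in
lemma branch_sum (hT : IsST W E T) (hEW : ∀ e ∈ E, ∀ v ∈ e, v ∈ W)
    (hdiag : ∀ e ∈ E, ¬ e.IsDiag) (ha : a ∈ W) (hz : z ∈ W) :
    ∑ b ∈ W, (if s(a, b) ∈ T then ind (R (T \ {s(a, b)}) b z) else 0) =
      1 - (if a = z then 1 else 0) := by
  by_cases haz : a = z
  · subst haz
    simp only [if_true, sub_self]
    apply Finset.sum_eq_zero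
    intro b hb
    split_ifs with hab
    · obtain ⟨h1, h2, h3⟩ := hT.split hdiag hab ha
      exact ind_false (fun h => h2 h.symm)
    · rfl
  · rw [if_neg haz, sub_zero]
    -- existence
    have hex : ∃ b, s(a, b) ∈ T ∧ R (T \ {s(a, b)}) b z := by
      obtain ⟨p, hp⟩ := (hT.2.2 a ha z hz).exists_isPath
      cases p with
      | nil => exact absurd rfl haz
      | @cons _ b _ h q =>
        rw [SimpleGraph.Walk.cons_isPath_iff] at hp
        rw [SimpleGraph.fromEdgeSet_adj] at h
        refine ⟨b, h.1, ?_⟩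
        have hq : ∀ e ∈ q.edges, e ∈ (SimpleGraph.fromEdgeSet (T \ {s(a, b)})).edgeSet := by
          intro e he
          have h1 := q.edges_subset_edgeSet he
          rw [SimpleGraph.edgeSet_fromEdgeSet] at h1 ⊢
          refine ⟨⟨h1.1, ?_⟩, h1.2⟩
          intro h2
          rw [Set.mem_singleton_iff] at h2
          subst h2
          exact hp.2 (q.fst_mem_support_of_mem_edges he)
        exact ⟨q.transfer _ hq⟩
    obtain ⟨b, hab, hbz⟩ := hex
    have hbW : b ∈ W := hEW _ (hT.1 hab) b (Sym2.mem_mk_right a b)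
    rw [Finset.sum_eq_single b]
    · rw [if_pos hab, ind_true hbz]
    · intro b' hb' hne
      split_ifs with hab'
      · apply ind_false
        intro hbz'
        obtain ⟨-, h2, -⟩ := hT.split hdiag hab ha
        obtain ⟨-, h2', -⟩ := hT.split hdiag hab' ha
        have hne1 : s(a, b') ≠ s(a, b) := by
          intro h; apply hne
          rw [Sym2.eq_iff] at h
          rcases h with ⟨_, h⟩ | ⟨h, h'⟩
          · exact h
          · rw [h', h]
        set F : Set (Sym2 V) := (T \ {s(a, b)}) \ {s(a, b')} with hF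
        have e1 : insert s(a, b') F = T \ {s(a, b)} := by
          have hm : s(a, b') ∈ T \ {s(a, b)} := ⟨hab', hne1⟩
          rw [hF, Set.insert_sdiff_singleton, Set.insert_eq_of_mem hm]
        have e2 : insert s(a, b) F = T \ {s(a, b')} := by
          have hm : s(a, b) ∈ T \ {s(a, b')} := ⟨hab, hne1.symm⟩
          rw [hF, Set.sdiff_sdiff_comm, Set.insert_sdiff_singleton, Set.insert_eq_of_mem hm]
        have f1 : R (T \ {s(a, b)}) a b' := R_of_mem ⟨hab', hne1⟩
        have f2 : R (T \ {s(a, b')}) a b := R_of_mem ⟨hab, hne1.symm⟩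
        have s1 : F ⊆ T \ {s(a, b)} := by rw [← e1]; exact Set.subset_insert _ _
        have s2 : F ⊆ T \ {s(a, b')} := by rw [← e2]; exact Set.subset_insert _ _
        have g1 : R F b z := by
          have := hbz
          rw [← e1, R_insert] at this
          rcases this with h | ⟨h, _⟩ | ⟨h, _⟩
          · exact h
          · exact absurd (h.mono s1).symm h2
          · exact absurd (f1.trans (h.mono s1).symm) h2
        have g2 : R F b' z := by
          have := hbz'
          rw [← e2, R_insert] at this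
          rcases this with h | ⟨h, _⟩ | ⟨h, _⟩
          · exact h
          · exact absurd (h.mono s2).symm h2'
          · exact absurd (f2.trans (h.mono s2).symm) h2'
        exact h2 (f1.trans ((g2.trans g1.symm).mono s1))
      · rfl
    · intro h; exact absurd hbW h

lemma flow_div [DecidableEq V] (hT : IsST W E T) (hEW : ∀ e ∈ E, ∀ v ∈ e, v ∈ W)
    (hdiag : ∀ e ∈ E, ¬ e.IsDiag) (hx : x ∈ W) (hy : y ∈ W) (a : V) :
    ∑ b ∈ W, flow T x y a b = (if a = x then 1 else 0) - (if a = y then 1 else 0) := by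
  classical
  by_cases ha : a ∈ W
  · have h1 := branch_sum hT hEW hdiag ha hx
    have h2 := branch_sum hT hEW hdiag ha hy
    have h3 : ∑ b ∈ W, flow T x y a b =
        ∑ b ∈ W, (if s(a, b) ∈ T then ind (R (T \ {s(a, b)}) b y) else 0) -
        ∑ b ∈ W, (if s(a, b) ∈ T then ind (R (T \ {s(a, b)}) b x) else 0) := by
      rw [← Finset.sum_sub_distrib]
      apply Finset.sum_congr rfl
      intro b _
      unfold flow
      split_ifs <;> simp
    rw [h3, h1, h2]
    split_ifs <;> simp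
  · have h1 : a ≠ x := fun h => ha (h ▸ hx)
    have h2 : a ≠ y := fun h => ha (h ▸ hy)
    rw [if_neg h1, if_neg h2, sub_zero]
    apply Finset.sum_eq_zero
    intro b _
    apply flow_eq_zero
    intro hab
    exact ha (hEW _ (hT.1 hab) a (Sym2.mem_mk_left a b))

lemma flow_xy (hT : IsST W E T) (hdiag : ∀ e ∈ E, ¬ e.IsDiag) (hx : x ∈ W) :
    flow T x y x y = ind (s(x, y) ∈ T) := by
  by_cases hxy : s(x, y) ∈ T
  · obtain ⟨-, h2, -⟩ := hT.split hdiag hxy hx
    unfold flow
    rw [if_pos hxy, ind_true (R.refl _ _), ind_false (fun h => h2 h.symm), ind_true hxy]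
    norm_num
  · rw [flow_eq_zero hxy, ind_false hxy]

/-- the two-component spanning forests separating `x` and `y` -/
def IsSF (W : Finset V) (E : Finset (Sym2 V)) (x y : V) (F : Set (Sym2 V)) : Prop :=
  F ⊆ E ∧ (SimpleGraph.fromEdgeSet F).IsAcyclic ∧ ¬ R F x y ∧
    ∀ z ∈ W, R F x z ∨ R F y z

lemma value_eq {F : Set (Sym2 V)} (hab : ¬ R F a b) (hxy : ¬ R F x y)
    (h1 : R F a x ∨ R F b x) (h2 : R F a y ∨ R F b y) :
    ind (R F b y) - ind (R F b x) = ind (R F x a) - ind (R F x b) := by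
  rcases h1 with h1 | h1 <;> rcases h2 with h2 | h2
  · exact absurd (h1.symm.trans h2) hxy
  · rw [ind_true h2, ind_false (fun h : R F b x => hab (h1.trans h.symm)), ind_true h1.symm,
      ind_false (fun h : R F x b => hab (h1.trans h))]
  · rw [ind_false (fun h : R F b y => hab (h2.trans h.symm)), ind_true h1,
      ind_false (fun h : R F x a => hab (h1.trans h).symm), ind_true h1.symm]
  · exact absurd (h1.symm.trans h2) hxy

lemma gradient (hEW : ∀ e ∈ E, ∀ v ∈ e, v ∈ W) (hdiag : ∀ e ∈ E, ¬ e.IsDiag)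
    (O C : Set (Sym2 V)) (hx : x ∈ W) (hy : y ∈ W)
    (TT FF : Finset (Set (Sym2 V))) (hTT : ∀ T, T ∈ TT ↔ IsST W E T ∧ O ⊆ T ∧ Disjoint C T)
    (hFF : ∀ F, F ∈ FF ↔ IsSF W E x y F ∧ O ⊆ F ∧ Disjoint C F)
    (hab : s(a, b) ∈ E) (hO : s(a, b) ∉ O) (hC : s(a, b) ∉ C) :
    ∑ T ∈ TT, flow T x y a b = ∑ F ∈ FF, (ind (R F x a) - ind (R F x b)) := by
  have haW : a ∈ W := hEW _ hab a (Sym2.mem_mk_left a b)
  have hbW : b ∈ W := hEW _ hab b (Sym2.mem_mk_right a b)
  have hne : a ≠ b := by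
    intro h
    exact hdiag _ hab (by simp [h])
  have key : ∀ T ∈ TT, flow T x y a b ≠ 0 → s(a, b) ∈ T ∧ ¬ R (T \ {s(a, b)}) x y := by
    intro T hT h
    have h1 : s(a, b) ∈ T := by
      by_contra h1; exact h (flow_eq_zero h1)
    refine ⟨h1, ?_⟩
    intro h2
    apply h
    unfold flow
    rw [if_pos h1]
    by_cases h3 : R (T \ {s(a, b)}) b y
    · rw [ind_true h3, ind_true (h3.trans h2.symm)]; norm_num
    · rw [ind_false h3, ind_false (fun h => h3 (h.trans h2))]; norm_num
  refine Finset.sum_bij_ne_zero (fun T _ _ => T \ {s(a, b)}) ?_ ?_ ?_ ?_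
  · intro T hT h
    obtain ⟨h1, h2⟩ := key T hT h
    obtain ⟨hst, hOT, hCT⟩ := (hTT T).1 hT
    obtain ⟨-, h3, h4⟩ := hst.split hdiag h1 haW
    rw [hFF]
    refine ⟨⟨fun e he => hst.1 he.1, ?_, h2, ?_⟩, ?_, ?_⟩
    · exact hst.2.1.anti (SimpleGraph.fromEdgeSet_mono Set.sdiff_subset)
    · intro z hz
      rcases h4 x hx with h5 | h5 <;> rcases h4 y hy with h6 | h6 <;> rcases h4 z hz with h7 | h7
      · exact absurd (h5.symm.trans h6) h2
      · exact absurd (h5.symm.trans h6) h2
      · exact Or.inl (h5.symm.trans h7)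
      · exact Or.inr (h6.symm.trans h7)
      · exact Or.inr (h6.symm.trans h7)
      · exact Or.inl (h5.symm.trans h7)
      · exact absurd (h5.symm.trans h6) h2
      · exact absurd (h5.symm.trans h6) h2
    · intro e he
      exact ⟨hOT he, fun h => hO (by rw [Set.mem_singleton_iff] at h; rwa [← h])⟩
    · exact hCT.mono_right Set.sdiff_subset
  · intro T hT h T' hT' h' heq
    obtain ⟨h1, -⟩ := key T hT h
    obtain ⟨h1', -⟩ := key T' hT' h'
    have e1 : insert s(a, b) (T \ {s(a, b)}) = T := by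
      rw [Set.insert_sdiff_singleton, Set.insert_eq_of_mem h1]
    have e2 : insert s(a, b) (T' \ {s(a, b)}) = T' := by
      rw [Set.insert_sdiff_singleton, Set.insert_eq_of_mem h1']
    rw [← e1, ← e2]
    exact congrArg _ heq
  · intro F hF h
    obtain ⟨⟨h1, h2, h3, h4⟩, hOF, hCF⟩ := (hFF F).1 hF
    have hnab : ¬ R F a b := by
      intro h5
      apply h
      by_cases h6 : R F x a
      · rw [ind_true h6, ind_true (h6.trans h5)]; norm_num
      · rw [ind_false h6, ind_false (fun h => h6 (h.trans h5.symm))]; norm_num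
    have hnF : s(a, b) ∉ F := fun h5 => hnab (R_of_mem h5)
    have hdiff : insert s(a, b) F \ {s(a, b)} = F := by
      rw [Set.insert_sdiff_of_mem _ (Set.mem_singleton _), Set.sdiff_singleton_eq_self hnF]
    have hRab : R (insert s(a, b) F) a b := R_of_mem (Set.mem_insert _ _)
    have hcomp : ∀ z ∈ W, R F a z ∨ R F b z := by
      intro z hz
      rcases h4 a haW with h5 | h5 <;> rcases h4 b hbW with h6 | h6 <;>
        rcases h4 z hz with h7 | h7
      · exact absurd (h5.symm.trans h6) hnab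
      · exact absurd (h5.symm.trans h6) hnab
      · exact Or.inl (h5.symm.trans h7)
      · exact Or.inr (h6.symm.trans h7)
      · exact Or.inr (h6.symm.trans h7)
      · exact Or.inl (h5.symm.trans h7)
      · exact absurd (h5.symm.trans h6) hnab
      · exact absurd (h5.symm.trans h6) hnab
    have hval := value_eq hnab h3 (hcomp x hx) (hcomp y hy)
    have hflow : flow (insert s(a, b) F) x y a b = ind (R F x a) - ind (R F x b) := by
      unfold flow
      rw [if_pos (Set.mem_insert _ _), hdiff, hval]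
    have hmem : insert s(a, b) F ∈ TT := by
      rw [hTT]
      refine ⟨⟨?_, ?_, ?_⟩, ?_, ?_⟩
      · rintro e (rfl | he)
        · exact hab
        · exact h1 he
      · rw [acyclic_insert hne hnF]; exact ⟨h2, hnab⟩
      · have hs : F ⊆ insert s(a, b) F := Set.subset_insert _ _
        have h8 : ∀ z ∈ W, R (insert s(a, b) F) a z := by
          intro z hz
          rcases hcomp z hz with h9 | h9
          · exact h9.mono hs
          · exact hRab.trans (h9.mono hs)
        intro u hu v hv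
        exact (h8 u hu).symm.trans (h8 v hv)
      · exact hOF.trans (Set.subset_insert _ _)
      · rw [Set.disjoint_left] at hCF ⊢
        rintro e he (rfl | he')
        · exact hC he
        · exact hCF he he'
    refine ⟨insert s(a, b) F, hmem, ?_, ?_⟩
    · rw [hflow]; exact h
    · exact hdiff
  · intro T hT h
    obtain ⟨h1, h2⟩ := key T hT h
    obtain ⟨hst, hOT, hCT⟩ := (hTT T).1 hT
    obtain ⟨-, h3, h4⟩ := hst.split hdiag h1 haW
    unfold flow
    rw [if_pos h1]
    exact value_eq h3 h2 (h4 x hx) (h4 y hy)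

end tree

/-- PART A (Kirchhoff's law with conditioning). -/
theorem kirchhoff {V : Type*} [DecidableEq V] (W : Finset V) (E : Finset (Sym2 V))
    (hEW : ∀ e ∈ E, ∀ v ∈ e, v ∈ W) (hdiag : ∀ e ∈ E, ¬ e.IsDiag) (O C : Set (Sym2 V))
    {x y : V} (hxy : s(x, y) ∈ E) (hO : s(x, y) ∉ O) (hC : s(x, y) ∉ C)
    (hne : ∃ T, IsST W E T ∧ O ⊆ T ∧ Disjoint C T) :
    ∃ (θ : V → V → ℝ) (g : V → ℝ),
      (∀ a b, θ a b = - θ b a) ∧
      (∀ a b, s(a, b) ∉ E → θ a b = 0) ∧
      (∀ a b, s(a, b) ∈ C → θ a b = 0) ∧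
      (∀ a, ∑ b ∈ W, θ a b = (if a = x then 1 else 0) - (if a = y then 1 else 0)) ∧
      (∀ a b, s(a, b) ∈ E → s(a, b) ∉ O → s(a, b) ∉ C → θ a b = g a - g b) ∧
      (∀ a b, s(a, b) ∈ E → s(a, b) ∈ O → g a = g b) ∧
      θ x y = ({T | IsST W E T ∧ O ⊆ T ∧ Disjoint C T ∧ s(x, y) ∈ T}.ncard : ℝ) /
        ({T | IsST W E T ∧ O ⊆ T ∧ Disjoint C T}.ncard : ℝ) := by
  classical
  have hx : x ∈ W := hEW _ hxy x (Sym2.mem_mk_left x y)
  have hy : y ∈ W := hEW _ hxy y (Sym2.mem_mk_right x y)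
  have hfin : {T : Set (Sym2 V) | T ⊆ E}.Finite := (Finset.finite_toSet E).finite_subsets
  have hfinT : {T | IsST W E T ∧ O ⊆ T ∧ Disjoint C T}.Finite :=
    hfin.subset (fun T hT => hT.1.1)
  have hfinF : {F | IsSF W E x y F ∧ O ⊆ F ∧ Disjoint C F}.Finite :=
    hfin.subset (fun T hT => hT.1.1)
  have hfinX : {T | IsST W E T ∧ O ⊆ T ∧ Disjoint C T ∧ s(x, y) ∈ T}.Finite :=
    hfin.subset (fun T hT => hT.1.1)
  set TT := hfinT.toFinset with hTTdef
  set FF := hfinF.toFinset with hFFdef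
  have hTT : ∀ T, T ∈ TT ↔ IsST W E T ∧ O ⊆ T ∧ Disjoint C T := by
    intro T; rw [hTTdef, Set.Finite.mem_toFinset]; rfl
  have hFF : ∀ F, F ∈ FF ↔ IsSF W E x y F ∧ O ⊆ F ∧ Disjoint C F := by
    intro T; rw [hFFdef, Set.Finite.mem_toFinset]; rfl
  have hcard : {T | IsST W E T ∧ O ⊆ T ∧ Disjoint C T}.ncard = TT.card := by
    rw [Set.ncard_eq_toFinset_card _ hfinT]
  have hpos : 0 < TT.card := by
    rw [Finset.card_pos]
    obtain ⟨T, hT⟩ := hne
    exact ⟨T, (hTT T).2 hT⟩
  have hN : (TT.card : ℝ) ≠ 0 := by positivity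
  refine ⟨fun a b => (∑ T ∈ TT, flow T x y a b) / TT.card,
    fun a => (∑ F ∈ FF, ind (R F x a)) / TT.card, ?_, ?_, ?_, ?_, ?_, ?_, ?_⟩
  · intro a b
    change (∑ T ∈ TT, flow T x y a b) / TT.card = - ((∑ T ∈ TT, flow T x y b a) / TT.card)
    rw [← neg_div, ← Finset.sum_neg_distrib]
    congr 1
    apply Finset.sum_congr rfl
    intro T hT
    exact flow_antisymm ((hTT T).1 hT).1 hEW hdiag hx hy a b
  · intro a b hab
    rw [div_eq_zero_iff]
    left
    apply Finset.sum_eq_zero
    intro T hT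
    apply flow_eq_zero
    intro h
    exact hab (((hTT T).1 hT).1.1 h)
  · intro a b hab
    rw [div_eq_zero_iff]
    left
    apply Finset.sum_eq_zero
    intro T hT
    apply flow_eq_zero
    intro h
    exact (Set.disjoint_left.1 ((hTT T).1 hT).2.2) hab h
  · intro a
    rw [← Finset.sum_div, Finset.sum_comm]
    rw [Finset.sum_congr rfl (fun T hT => flow_div ((hTT T).1 hT).1 hEW hdiag hx hy a)]
    rw [Finset.sum_const, nsmul_eq_mul]
    field_simp
  · intro a b hab hO' hC'
    have := gradient hEW hdiag O C hx hy TT FF hTT hFF hab hO' hC'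
    change (∑ T ∈ TT, flow T x y a b) / TT.card = (∑ F ∈ FF, ind (R F x a)) / TT.card -
      (∑ F ∈ FF, ind (R F x b)) / TT.card
    rw [this, Finset.sum_sub_distrib, sub_div]
  · intro a b hab hO'
    change (∑ F ∈ FF, ind (R F x a)) / TT.card = (∑ F ∈ FF, ind (R F x b)) / TT.card
    congr 1
    apply Finset.sum_congr rfl
    intro F hF
    have h1 : R F a b := R_of_mem (((hFF F).1 hF).2.1 hO')
    by_cases h2 : R F x a
    · rw [ind_true h2, ind_true (h2.trans h1)]
    · rw [ind_false h2, ind_false (fun h => h2 (h.trans h1.symm))]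
  · change (∑ T ∈ TT, flow T x y x y) / TT.card = _
    rw [hcard]
    congr 1
    rw [Finset.sum_congr rfl (fun T hT => flow_xy ((hTT T).1 hT).1 hdiag hx)]
    rw [Set.ncard_eq_toFinset_card _ hfinX]
    have h1 : hfinX.toFinset = TT.filter (fun T => s(x, y) ∈ T) := by
      ext T
      rw [Set.Finite.mem_toFinset, Finset.mem_filter, hTT]
      simp only [Set.mem_ofPred_eq]
      tauto
    rw [h1, Finset.card_filter]
    push_cast
    apply Finset.sum_congr rfl
    intro T _
    unfold ind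
    split_ifs <;> rfl

end Vale.Agent.P143A
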